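import Vale.Agent.P087.Upper

namespace Vale.Agent.Results.P087.Counter

open Vale.Agent.P087

theorem result : ∃ (E : Type) (_ : NormedAddCommGroup E) (_ : InnerProductSpace ℂ E)
    (_ : CompleteSpace E) (M : VonNeumannAlgebra E) (Ω : E) (ι : Type) (_ : Fintype ι)
    (_ : DecidableEq ι) (_ : Nonempty ι) (X S : ι → E →L[ℂ] E),
    FaithfulTrace M Ω ∧ (∀ j, X j ∈ M ∧ IsSelfAdjoint (X j) ∧ S j ∈ M) ∧ FreeSemi Ω X S ∧
      ⊥ < chi (fun w => tau Ω (mono X w)) ∧ chi (fun w => tau Ω (mono X w)) < chiStar Ω X S :=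
  main

end Vale.Agent.Results.P087.Counter
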